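import Vale.Agent.P064.Main

open Vale.Agent.P064

theorem Vale.Agent.Results.P064.SecondKK.result :
    ∃ C : ℝ, ∀ (n : ℕ), 2 ≤ n → ∀ (V : Type) [Fintype V] (H : SimpleGraph V),
      Fintype.card V ≤ n → 1 ≤ H.edgeSet.ncard →
        pc n H ≤ C * pE n H * Real.log n ∧
        pc n H ≤ 2 ^ 67 * pE n H * (1 + Real.logb 2 H.edgeSet.ncard) :=
  ⟨2 ^ 70, fun _ hn _ _ H hV hH => ⟨pc_le_log hn H hV hH, pc_le_logb H hV hH⟩⟩
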